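import Mathlib
import Vale.Agent.Lib.P121.Defs
import Vale.Agent.Lib.P121.Main

open MeasureTheory

namespace Vale.Agent.Results.P121.NoOptimalMonge

open Vale.Agent.Lib.P121

/-- There is a Borel probability measure on three-dimensional Euclidean space, absolutely continuous
with respect to Lebesgue measure, with finite Kantorovich value for the three-marginal Coulomb cost,
that admits no optimal Monge plan. -/
theorem result :
    ∃ μ : Measure (EuclideanSpace ℝ (Fin 3)),
      IsProbabilityMeasure μ ∧ μ ≪ volume ∧ kantorovichValue μ < ⊤ ∧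
      ¬ ∃ T₂ T₃ : EuclideanSpace ℝ (Fin 3) → EuclideanSpace ℝ (Fin 3),
        Measurable T₂ ∧ Measurable T₃ ∧ μ.map T₂ = μ ∧ μ.map T₃ = μ ∧
          ∫⁻ x, coulomb x (T₂ x) (T₃ x) ∂μ = kantorovichValue μ :=
  exists_no_optimal_monge

end Vale.Agent.Results.P121.NoOptimalMonge
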